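import Mathlib

/-!
# P225: rotationally symmetric manifolds `(ℝ^n, dr² + f(r)² g_{S^{n-1}})`
-/

open Filter Topology

namespace Vale.Agent.Lib.P225

/-- `f` is the warping function of a complete rotationally symmetric metric
`g = dr² + f(r)² g_{S^{n-1}}` on `ℝ^n` with nonnegative Ricci curvature:
`f(0) = 0`, `f'(0) = 1`, `f > 0` on `(0,∞)` and `f'` nonincreasing on `[0,∞)` (that is `f'' ≤ 0`,
which is `Ric(∂_r,∂_r) = -(n-1) f''/f ≥ 0`; the tangential Ricci curvatures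
`-f''/f + (n-2)(1-f'^2)/f²` are then nonnegative as well since `0 ≤ f' ≤ 1`). -/
structure IsRicNonnegWarp (f : ℝ → ℝ) : Prop where
  zero : f 0 = 0
  differentiable : ∀ r : ℝ, 0 ≤ r → DifferentiableAt ℝ f r
  deriv_zero : deriv f 0 = 1
  pos : ∀ r : ℝ, 0 < r → 0 < f r
  deriv_antitone : AntitoneOn (deriv f) (Set.Ici 0)

/-- `a` is the radial factor of a function `u(r,θ) = a(r) Y(θ)` on `ℝ^n`, `Y` a spherical harmonic
of degree `j` on `S^{n-1}` (so `Δ_S Y = -j(j+n-2) Y`), that is harmonic for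
`g = dr² + f(r)² g_{S^{n-1}}`, i.e. `a'' + (n-1)(f'/f) a' - j(j+n-2) a / f² = 0` on `(0,∞)`,
and is `C¹` at the pole: `a(r) → 0` as `r → 0+` and `a'` is bounded near `0`. -/
structure IsRegularRadialMode (n j : ℕ) (f a : ℝ → ℝ) : Prop where
  differentiable : ∀ r : ℝ, 0 < r → DifferentiableAt ℝ a r
  differentiable' : ∀ r : ℝ, 0 < r → DifferentiableAt ℝ (deriv a) r
  ode : ∀ r : ℝ, 0 < r →
    deriv (deriv a) r + ((n : ℝ) - 1) * (deriv f r / f r) * deriv a r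
      - (j : ℝ) * ((j : ℝ) + n - 2) / f r ^ 2 * a r = 0
  tendsto_zero : Tendsto a (𝓝[>] 0) (𝓝 0)
  deriv_bounded : ∃ M : ℝ, ∀ r : ℝ, 0 < r → r < 1 → |deriv a r| ≤ M

end Vale.Agent.Lib.P225
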