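import Vale.Agent.Lib.P225.Defs

/-!
# P225: radial modes on rotationally symmetric manifolds

`g = dr² + f(r)² g_{S^{n-1}}` on `ℝ^n`.
-/

open Filter Topology Set

namespace Vale.Agent.Lib.P225

/-- Elementary consequences of concavity: `r f'(r) ≤ f(r) ≤ r`. -/
theorem warp_bounds {f f' : ℝ → ℝ} (hf0 : f 0 = 0) (hfd : ∀ r, 0 ≤ r → HasDerivAt f (f' r) r)
    (hf1 : f' 0 = 1) (hanti : AntitoneOn f' (Ici 0)) {r : ℝ} (hr : 0 < r) :
    r * f' r ≤ f r ∧ f r ≤ r := by
  have hcont : ContinuousOn f (Icc 0 r) := fun x hx => (hfd x hx.1).continuousAt.continuousWithinAt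
  obtain ⟨ξ, hξ, hξ'⟩ := exists_hasDerivAt_eq_slope f f' hr hcont
    (fun x hx => hfd x hx.1.le)
  rw [hf0, sub_zero, sub_zero] at hξ'
  have h1 : f r = f' ξ * r := by rw [hξ']; field_simp
  have h2 : f' r ≤ f' ξ := hanti (mem_Ici.2 hξ.1.le) (mem_Ici.2 hr.le) hξ.2.le
  have h3 : f' ξ ≤ 1 := by
    rw [← hf1]; exact hanti (mem_Ici.2 le_rfl) (mem_Ici.2 hξ.1.le) hξ.1.le
  constructor
  · rw [h1]; nlinarith
  · rw [h1]; nlinarith

/-- The monotone quantity `Z(r) = f^{n-1} (a a' - j a²/r)`, with `n = p + 2`. -/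
theorem Z_hasDerivAt {f f' a a' a'' : ℝ → ℝ} (p j : ℕ) {r : ℝ} (hr : 0 < r)
    (hf : HasDerivAt f (f' r) r) (ha : HasDerivAt a (a' r) r) (ha' : HasDerivAt a' (a'' r) r) :
    HasDerivAt (fun r => f r ^ (p + 1) * (a r * a' r - j * a r ^ 2 / r))
      (((p + 1 : ℕ) : ℝ) * f r ^ p * f' r * (a r * a' r - j * a r ^ 2 / r)
        + f r ^ (p + 1) * (a' r * a' r + a r * a'' r
          - (j * (2 * a r * a' r) * r - j * a r ^ 2 * 1) / r ^ 2)) r := by
  have h1 : HasDerivAt (fun r => f r ^ (p + 1)) (((p + 1 : ℕ) : ℝ) * f r ^ p * f' r) r := by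
    simpa using hf.fun_pow (p + 1)
  have h2 : HasDerivAt (fun r => a r * a' r) (a' r * a' r + a r * a'' r) r := ha.mul ha'
  have h3 : HasDerivAt (fun r => (j : ℝ) * a r ^ 2) (j * (2 * a r * a' r)) r := by
    have := (ha.fun_pow 2).const_mul (j : ℝ)
    simpa using this
  have h4 : HasDerivAt (fun r => (j : ℝ) * a r ^ 2 / r)
      ((j * (2 * a r * a' r) * r - j * a r ^ 2 * 1) / r ^ 2) r :=
    h3.div (hasDerivAt_id r) hr.ne'
  exact h1.mul (h2.sub h4)

/-- Nonnegativity of the derivative of `Z` along solutions of the radial mode equation. -/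
theorem Z_deriv_nonneg {F F' A A' A'' r : ℝ} (p j : ℕ) (hr : 0 < r) (hF : 0 < F)
    (h1 : r * F' ≤ F) (h2 : F ≤ r)
    (hode : A'' + ((p : ℝ) + 1) * (F' / F) * A' - (j : ℝ) * (j + p) / F ^ 2 * A = 0) :
    0 ≤ ((p + 1 : ℕ) : ℝ) * F ^ p * F' * (A * A' - j * A ^ 2 / r)
        + F ^ (p + 1) * (A' * A' + A * A''
          - (j * (2 * A * A') * r - j * A ^ 2 * 1) / r ^ 2) := by
  have hA'' : A'' = -(((p : ℝ) + 1) * (F' / F) * A') + (j : ℝ) * (j + p) / F ^ 2 * A := by
    linarith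
  have key : ((p + 1 : ℕ) : ℝ) * F ^ p * F' * (A * A' - j * A ^ 2 / r)
        + F ^ (p + 1) * (A' * A' + A * A''
          - (j * (2 * A * A') * r - j * A ^ 2 * 1) / r ^ 2)
      = F ^ p * (F * (A' - j * A / r) ^ 2
          + A ^ 2 * ((j : ℝ) * (j + p) / F - ((p : ℝ) + 1) * j * F' / r
              - (j : ℝ) * (j - 1) * F / r ^ 2)) := by
    rw [hA'']
    push_cast
    field_simp
    ring
  rw [key]
  have hj : (0 : ℝ) ≤ j := Nat.cast_nonneg j
  have hp : (0 : ℝ) ≤ p := Nat.cast_nonneg p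
  have hb : 0 ≤ (j : ℝ) * (j + p) / F - ((p : ℝ) + 1) * j * F' / r
      - (j : ℝ) * (j - 1) * F / r ^ 2 := by
    have e1 : ((p : ℝ) + 1) * j * F' / r ≤ ((p : ℝ) + 1) * j * F / r ^ 2 := by
      rw [div_le_div_iff₀ hr (by positivity)]
      have : ((p : ℝ) + 1) * j * (r * F') ≤ ((p : ℝ) + 1) * j * F :=
        mul_le_mul_of_nonneg_left h1 (by positivity)
      nlinarith
    have e2 : (j : ℝ) * (j + p) * F / r ^ 2 ≤ (j : ℝ) * (j + p) / F := by
      rw [div_le_div_iff₀ (by positivity) hF]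
      have : F * F ≤ r ^ 2 := by nlinarith
      have h3 : (j : ℝ) * (j + p) * (F * F) ≤ (j : ℝ) * (j + p) * r ^ 2 :=
        mul_le_mul_of_nonneg_left this (by positivity)
      nlinarith
    have e3 : ((p : ℝ) + 1) * j * F / r ^ 2 + (j : ℝ) * (j - 1) * F / r ^ 2
        = (j : ℝ) * (j + p) * F / r ^ 2 := by ring
    linarith
  have : 0 ≤ F * (A' - j * A / r) ^ 2 := by positivity
  have h5 : 0 ≤ A ^ 2 * ((j : ℝ) * (j + p) / F - ((p : ℝ) + 1) * j * F' / r
      - (j : ℝ) * (j - 1) * F / r ^ 2) := mul_nonneg (sq_nonneg _) hb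
  have h6 : 0 ≤ F ^ p := by positivity
  exact mul_nonneg h6 (by linarith)

/-- `Z ≥ 0` on `(0,∞)`, i.e. `r a a' ≥ j a²`. -/
theorem mode_Z_nonneg {p j : ℕ} {f a : ℝ → ℝ} (hf : IsRicNonnegWarp f)
    (ha : IsRegularRadialMode (p + 2) j f a) {r : ℝ} (hr : 0 < r) :
    0 ≤ a r * deriv a r - j * a r ^ 2 / r := by
  set Z : ℝ → ℝ := fun r => f r ^ (p + 1) * (a r * deriv a r - j * a r ^ 2 / r) with hZ
  have hb : ∀ r, 0 < r → r * deriv f r ≤ f r ∧ f r ≤ r := fun r hr =>
    warp_bounds hf.zero (fun x hx => (hf.differentiable x hx).hasDerivAt) hf.deriv_zero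
      hf.deriv_antitone hr
  have hZd : ∀ r, 0 < r → HasDerivAt Z
      (((p + 1 : ℕ) : ℝ) * f r ^ p * deriv f r * (a r * deriv a r - j * a r ^ 2 / r)
        + f r ^ (p + 1) * (deriv a r * deriv a r + a r * deriv (deriv a) r
          - (j * (2 * a r * deriv a r) * r - j * a r ^ 2 * 1) / r ^ 2)) r := fun r hr =>
    Z_hasDerivAt p j hr (hf.differentiable r hr.le).hasDerivAt (ha.differentiable r hr).hasDerivAt
      (ha.differentiable' r hr).hasDerivAt
  have hmono : MonotoneOn Z (Ioi 0) := by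
    apply monotoneOn_of_deriv_nonneg (convex_Ioi 0)
    · intro x hx; exact (hZd x hx).continuousAt.continuousWithinAt
    · intro x hx
      rw [interior_Ioi] at hx
      exact (hZd x hx).differentiableAt.differentiableWithinAt
    · intro x hx
      rw [interior_Ioi] at hx
      rw [(hZd x hx).deriv]
      apply Z_deriv_nonneg p j hx (hf.pos x hx) (hb x hx).1 (hb x hx).2
      have := ha.ode x hx
      push_cast at this
      have e1 : ((p : ℝ) + 2 - 1) = (p : ℝ) + 1 := by ring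
      have e2 : ((j : ℝ) + ((p : ℝ) + 2) - 2) = (j : ℝ) + p := by ring
      rw [e1, e2] at this
      exact this
  -- `Z → 0` at `0+`
  obtain ⟨M, hM⟩ := ha.deriv_bounded
  have hlim : Tendsto Z (𝓝[>] 0) (𝓝 0) := by
    have hbd : Tendsto (fun r : ℝ => |a r| * |M| + j * a r ^ 2) (𝓝[>] 0) (𝓝 0) := by
      have h1 : Tendsto (fun r : ℝ => |a r|) (𝓝[>] 0) (𝓝 0) := by
        simpa using ha.tendsto_zero.abs
      have h2 : Tendsto (fun r : ℝ => a r ^ 2) (𝓝[>] 0) (𝓝 0) := by
        simpa using ha.tendsto_zero.pow 2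
      simpa using (h1.mul_const |M|).add (h2.const_mul (j : ℝ))
    apply squeeze_zero_norm' _ hbd
    have hev : ∀ᶠ x : ℝ in 𝓝[>] 0, x ∈ Ioo (0 : ℝ) 1 := Ioo_mem_nhdsGT one_pos
    filter_upwards [hev] with x hx
    have hx0 := hx.1
    have hfx := hf.pos x hx0
    have hfle : f x ≤ x := (hb x hx0).2
    have hpow : f x ^ (p + 1) ≤ x := by
      calc f x ^ (p + 1) = f x ^ p * f x := pow_succ _ _
        _ ≤ 1 * x := by
          apply mul_le_mul _ hfle hfx.le zero_le_one
          exact pow_le_one₀ hfx.le (hfle.trans hx.2.le)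
        _ = x := one_mul x
    have hMx : |deriv a x| ≤ |M| := (hM x hx0 hx.2).trans (le_abs_self M)
    rw [Real.norm_eq_abs]
    simp only [hZ]
    rw [abs_mul, abs_of_pos (pow_pos hfx _)]
    have h3 : |a x * deriv a x - j * a x ^ 2 / x| ≤ |a x| * |M| + j * a x ^ 2 / x := by
      calc |a x * deriv a x - j * a x ^ 2 / x| ≤ |a x * deriv a x| + |j * a x ^ 2 / x| :=
            abs_sub _ _
        _ = |a x| * |deriv a x| + j * a x ^ 2 / x := by
            rw [abs_mul, abs_of_nonneg (by positivity : 0 ≤ (j : ℝ) * a x ^ 2 / x)]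
        _ ≤ |a x| * |M| + j * a x ^ 2 / x := by gcongr
    calc f x ^ (p + 1) * |a x * deriv a x - j * a x ^ 2 / x|
        ≤ x * (|a x| * |M| + j * a x ^ 2 / x) := by
          apply mul_le_mul hpow h3 (abs_nonneg _) hx0.le
      _ = x * (|a x| * |M|) + j * a x ^ 2 := by field_simp
      _ ≤ 1 * (|a x| * |M|) + j * a x ^ 2 := by
          gcongr
          exact hx.2.le
      _ = |a x| * |M| + j * a x ^ 2 := by ring
  have hZr : 0 ≤ Z r := by
    apply le_of_tendsto hlim
    have hev : ∀ᶠ x : ℝ in 𝓝[>] 0, x ∈ Ioo (0 : ℝ) r := Ioo_mem_nhdsGT hr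
    filter_upwards [hev] with x hx
    exact hmono hx.1 hr hx.2.le
  simp only [hZ] at hZr
  exact nonneg_of_mul_nonneg_right hZr (pow_pos (hf.pos r hr) _)

/-- `a²/r^{2j}` is nondecreasing. -/
theorem mode_sq_monotoneOn {p j : ℕ} {f a : ℝ → ℝ} (hf : IsRicNonnegWarp f)
    (ha : IsRegularRadialMode (p + 2) j f a) :
    MonotoneOn (fun r => a r ^ 2 / r ^ (2 * j)) (Ioi 0) := by
  have hd : ∀ r : ℝ, 0 < r → HasDerivAt (fun r => a r ^ 2 / r ^ (2 * j))
      ((((2 : ℕ) : ℝ) * a r ^ (2 - 1) * deriv a r * r ^ (2 * j)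
        - a r ^ 2 * (((2 * j : ℕ) : ℝ) * r ^ (2 * j - 1))) / (r ^ (2 * j)) ^ 2) r := by
    intro r hr
    exact ((ha.differentiable r hr).hasDerivAt.fun_pow 2).div (hasDerivAt_pow (2 * j) r)
      (pow_pos hr _).ne'
  apply monotoneOn_of_deriv_nonneg (convex_Ioi 0)
  · intro x hx; exact (hd x hx).continuousAt.continuousWithinAt
  · intro x hx
    rw [interior_Ioi] at hx
    exact (hd x hx).differentiableAt.differentiableWithinAt
  · intro x hx
    rw [interior_Ioi] at hx
    have hx0 : 0 < x := hx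
    rw [(hd x hx).deriv]
    apply div_nonneg _ (by positivity)
    have hZ := mode_Z_nonneg hf ha hx0
    rcases Nat.eq_zero_or_pos j with h0 | hjpos
    · subst h0
      simp only [Nat.cast_zero, zero_mul, zero_div, sub_zero] at hZ
      simp only [Nat.cast_ofNat, Nat.add_one_sub_one, pow_one, mul_zero, pow_zero, mul_one,
        Nat.cast_zero, zero_mul, sub_zero]
      linarith
    · have e : x ^ (2 * j) = x ^ (2 * j - 1) * x := by
        rw [← pow_succ]; congr 1; omega
      have h1 : ((2 : ℕ) : ℝ) * a x ^ (2 - 1) * deriv a x * x ^ (2 * j)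
          - a x ^ 2 * (((2 * j : ℕ) : ℝ) * x ^ (2 * j - 1))
          = 2 * x ^ (2 * j) * (a x * deriv a x - j * a x ^ 2 / x) := by
        rw [e]
        push_cast
        field_simp
      rw [h1]
      positivity

/-- Linear combinations of regular radial modes are regular radial modes. -/
theorem IsRegularRadialMode.sub_const_mul {n j : ℕ} {f a b : ℝ → ℝ}
    (ha : IsRegularRadialMode n j f a) (hb : IsRegularRadialMode n j f b) (c : ℝ) :
    IsRegularRadialMode n j f (fun r => b r - c * a r) := by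
  have hd1 : ∀ r : ℝ, 0 < r → deriv (fun r => b r - c * a r) r = deriv b r - c * deriv a r := by
    intro r hr
    exact ((hb.differentiable r hr).hasDerivAt.sub
      ((ha.differentiable r hr).hasDerivAt.const_mul c)).deriv
  have hev : ∀ r : ℝ, 0 < r →
      deriv (fun r => b r - c * a r) =ᶠ[𝓝 r] fun r => deriv b r - c * deriv a r := by
    intro r hr
    filter_upwards [Ioi_mem_nhds hr] with x hx
    exact hd1 x hx
  have hd2 : ∀ r : ℝ, 0 < r → HasDerivAt (deriv (fun r => b r - c * a r))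
      (deriv (deriv b) r - c * deriv (deriv a) r) r := by
    intro r hr
    exact ((hb.differentiable' r hr).hasDerivAt.sub
      ((ha.differentiable' r hr).hasDerivAt.const_mul c)).congr_of_eventuallyEq (hev r hr)
  refine ⟨?_, ?_, ?_, ?_, ?_⟩
  · intro r hr
    exact (hb.differentiable r hr).sub ((ha.differentiable r hr).const_mul c)
  · intro r hr
    exact (hd2 r hr).differentiableAt
  · intro r hr
    rw [(hd2 r hr).deriv, hd1 r hr]
    have h1 := ha.ode r hr
    have h2 := hb.ode r hr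
    linear_combination h2 - c * h1
  · simpa using hb.tendsto_zero.sub (ha.tendsto_zero.const_mul c)
  · obtain ⟨Ma, hMa⟩ := ha.deriv_bounded
    obtain ⟨Mb, hMb⟩ := hb.deriv_bounded
    refine ⟨Mb + |c| * Ma, ?_⟩
    intro r hr hr1
    rw [hd1 r hr]
    calc |deriv b r - c * deriv a r| ≤ |deriv b r| + |c * deriv a r| := abs_sub _ _
      _ = |deriv b r| + |c| * |deriv a r| := by rw [abs_mul]
      _ ≤ Mb + |c| * Ma := by
        have := hMa r hr hr1
        have := hMb r hr hr1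
        gcongr

/-- A regular radial mode vanishing at `r₁` vanishes on `(0, r₁]`. -/
theorem mode_eq_zero_of_le {p j : ℕ} {f a : ℝ → ℝ} (hf : IsRicNonnegWarp f)
    (ha : IsRegularRadialMode (p + 2) j f a) {r r₁ : ℝ} (hr : 0 < r) (hrr : r ≤ r₁)
    (h0 : a r₁ = 0) : a r = 0 := by
  have h := mode_sq_monotoneOn hf ha (mem_Ioi.2 hr) (mem_Ioi.2 (lt_of_lt_of_le hr hrr)) hrr
  simp only [h0] at h
  have h2 : a r ^ 2 / r ^ (2 * j) ≤ 0 := by simpa using h
  have h3 : 0 < r ^ (2 * j) := pow_pos hr _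
  rw [div_le_iff₀ h3, zero_mul] at h2
  have h4 : a r ^ 2 = 0 := le_antisymm h2 (sq_nonneg _)
  exact pow_eq_zero_iff (two_ne_zero) |>.1 h4

/-- The space of regular radial modes (for fixed `n`, `j`, `f`) is at most one-dimensional. -/
theorem mode_unique {p j : ℕ} {f a b : ℝ → ℝ} (hf : IsRicNonnegWarp f)
    (ha : IsRegularRadialMode (p + 2) j f a) (hb : IsRegularRadialMode (p + 2) j f b) :
    (∀ r : ℝ, 0 < r → a r = 0) ∨ ∃ c : ℝ, ∀ r : ℝ, 0 < r → b r = c * a r := by
  by_cases h : ∀ r : ℝ, 0 < r → a r = 0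
  · exact Or.inl h
  right
  simp only [not_forall] at h
  obtain ⟨r₀, hr₀, hne⟩ := h
  refine ⟨b r₀ / a r₀, ?_⟩
  intro r hr
  rcases le_total r r₀ with hle | hle
  · have hmode := ha.sub_const_mul hb (b r₀ / a r₀)
    have h0 : (fun r => b r - b r₀ / a r₀ * a r) r₀ = 0 := by
      simp only; field_simp; ring
    have := mode_eq_zero_of_le hf hmode hr hle h0
    linarith
  · have hner : a r ≠ 0 := fun h0 => hne (mode_eq_zero_of_le hf ha hr₀ hle h0)
    have hmode := ha.sub_const_mul hb (b r / a r)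
    have h0 : (fun x => b x - b r / a r * a x) r = 0 := by
      simp only; field_simp; ring
    have := mode_eq_zero_of_le hf hmode hr₀ hle h0
    have h1 : b r₀ = b r / a r * a r₀ := by linarith
    rw [h1]
    field_simp

end Vale.Agent.Lib.P225
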